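import Vale.Agent.Lib.P335_helper14.AvgApi

/-!
P335 (helper25): the abstract rectangle lemma.  Two equivalence relations with unique grid completion
have commuting averaging operators, and the product is the average over the join relation.
-/

namespace P335h14

open Finset

set_option linter.unusedSectionVars false

section Rect

variable {X : Type*} [Fintype X] [DecidableEq X]

/-- the join (composition) of two relations -/
def join (r s : X → X → Prop) (x w : X) : Prop := ∃ y, r x y ∧ s y w

instance (r s : X → X → Prop) [DecidableRel r] [DecidableRel s] : DecidableRel (join r s) :=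
  fun x w => by unfold join; infer_instance

theorem avg_congr_rel {t t' : X → X → Prop} [DecidableRel t] [DecidableRel t']
    (h : ∀ x y, t x y ↔ t' x y) (f : X → ℝ) : avg t f = avg t' f := by
  funext x
  unfold avg
  have : univ.filter (fun y => t x y) = univ.filter (fun y => t' x y) := by
    ext y; simp only [mem_filter, mem_univ, true_and]; exact h x y
  rw [this]

variable {r s : X → X → Prop} [DecidableRel r] [DecidableRel s]

theorem rect_card_le (hr : Equivalence r) (hs : Equivalence s)
    (R1 : ∀ x y z, r x y → s x z → ∃ w, s y w ∧ r z w) (R2 : ∀ x y, r x y → s x y → x = y)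
    {x y : X} (hxy : r x y) :
    (univ.filter (fun z => s x z)).card ≤ (univ.filter (fun z => s y z)).card := by
  apply Finset.card_le_card_of_forall_subsingleton (fun z w => r z w)
  · intro z hz
    simp only [mem_filter, mem_univ, true_and] at hz
    obtain ⟨w, hw1, hw2⟩ := R1 x y z hxy hz
    exact ⟨w, by simpa using hw1, hw2⟩
  · intro w _ z hz z' hz'
    simp only [mem_filter, mem_univ, true_and, Set.mem_ofPred_eq] at hz hz'
    exact R2 z z' (hr.trans hz.2 (hr.symm hz'.2)) (hs.trans (hs.symm hz.1) hz'.1)

theorem rect_card_eq (hr : Equivalence r) (hs : Equivalence s)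
    (R1 : ∀ x y z, r x y → s x z → ∃ w, s y w ∧ r z w) (R2 : ∀ x y, r x y → s x y → x = y)
    {x y : X} (hxy : r x y) :
    (univ.filter (fun z => s y z)).card = (univ.filter (fun z => s x z)).card :=
  le_antisymm (rect_card_le hr hs R1 R2 (hr.symm hxy)) (rect_card_le hr hs R1 R2 hxy)

theorem join_cls (x : X) :
    univ.filter (fun w => join r s x w)
      = (univ.filter (fun y => r x y)).biUnion (fun y => univ.filter (fun w => s y w)) := by
  ext w
  simp only [mem_filter, mem_univ, true_and, mem_biUnion]
  rfl

theorem join_disj (hr : Equivalence r) (hs : Equivalence s)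
    (R2 : ∀ x y, r x y → s x y → x = y) (x : X) :
    Set.PairwiseDisjoint (↑(univ.filter (fun y => r x y)) : Set X)
      (fun y => univ.filter (fun w => s y w)) := by
  intro y hy y' hy' hne
  simp only [coe_filter, mem_univ, true_and, Set.mem_ofPred_eq] at hy hy'
  rw [Function.onFun, Finset.disjoint_left]
  intro w hw hw'
  simp only [mem_filter, mem_univ, true_and] at hw hw'
  exact hne (R2 y y' (hr.trans (hr.symm hy) hy') (hs.trans hw (hs.symm hw')))

/-- the product of the two averages is the average over the join -/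
theorem avg_avg_eq_join (hr : Equivalence r) (hs : Equivalence s)
    (R1 : ∀ x y z, r x y → s x z → ∃ w, s y w ∧ r z w) (R2 : ∀ x y, r x y → s x y → x = y)
    (f : X → ℝ) : avg r (avg s f) = avg (join r s) f := by
  funext x
  unfold avg
  rw [join_cls, Finset.sum_biUnion (join_disj hr hs R2 x), Finset.card_biUnion (join_disj hr hs R2 x)]
  have h1 : ∀ y ∈ univ.filter (fun y => r x y),
      (∑ w ∈ univ.filter (fun w => s y w), f w) / ((univ.filter (fun w => s y w)).card : ℝ)
        = (∑ w ∈ univ.filter (fun w => s y w), f w) / ((univ.filter (fun w => s x w)).card : ℝ) := by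
    intro y hy
    simp only [mem_filter, mem_univ, true_and] at hy
    rw [rect_card_eq hr hs R1 R2 hy]
  have h2 : ∑ y ∈ univ.filter (fun y => r x y), (univ.filter (fun w => s y w)).card
      = (univ.filter (fun y => r x y)).card * (univ.filter (fun w => s x w)).card := by
    rw [Finset.sum_congr rfl (fun y hy => rect_card_eq hr hs R1 R2 (by simpa using hy))]
    simp
  rw [Finset.sum_congr rfl h1, h2, ← Finset.sum_div, div_div]
  push_cast
  rw [mul_comm]

theorem join_comm (hr : Equivalence r) (hs : Equivalence s)
    (R1 : ∀ x y z, r x y → s x z → ∃ w, s y w ∧ r z w) (x w : X) :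
    join r s x w ↔ join s r x w := by
  constructor
  · rintro ⟨y, h1, h2⟩
    obtain ⟨z, hz1, hz2⟩ := R1 y x w (hr.symm h1) h2
    exact ⟨z, hz1, hr.symm hz2⟩
  · rintro ⟨z, h1, h2⟩
    obtain ⟨y, hy1, hy2⟩ := R1 z w x h2 (hs.symm h1)
    exact ⟨y, hy2, hs.symm hy1⟩

/-- unique grid completion implies that the averages commute -/
theorem avg_comm_of_rect (hr : Equivalence r) (hs : Equivalence s)
    (R1 : ∀ x y z, r x y → s x z → ∃ w, s y w ∧ r z w) (R2 : ∀ x y, r x y → s x y → x = y)
    (f : X → ℝ) : avg r (avg s f) = avg s (avg r f) := by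
  rw [avg_avg_eq_join hr hs R1 R2,
    avg_avg_eq_join hs hr (fun x y z h1 h2 => by
      obtain ⟨w, hw1, hw2⟩ := R1 x z y h2 h1
      exact ⟨w, hw2, hw1⟩) (fun x y h1 h2 => R2 x y h2 h1)]
  exact avg_congr_rel (join_comm hr hs R1) f

theorem join_equiv (hr : Equivalence r) (hs : Equivalence s)
    (R1 : ∀ x y z, r x y → s x z → ∃ w, s y w ∧ r z w) : Equivalence (join r s) where
  refl := fun x => ⟨x, hr.refl x, hs.refl x⟩
  symm := by
    rintro x w ⟨y, h1, h2⟩
    exact (join_comm hr hs R1 w x).2 ⟨y, hs.symm h2, hr.symm h1⟩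
  trans := by
    rintro x w v ⟨y, h1, h2⟩ h
    obtain ⟨z, hz1, hz2⟩ := (join_comm hr hs R1 w v).1 h
    obtain ⟨y', hy1, hy2⟩ := (join_comm hr hs R1 y v).2 ⟨z, hs.trans h2 hz1, hz2⟩
    exact ⟨y', hr.trans h1 hy1, hy2⟩

end Rect

end P335h14
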