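import Vale.Agent.Lib.P335_helper14.AvgApi
import Vale.Agent.Lib.P335_helper14.Spectral

/-!
P335 (helper25): generic transfer of averaging operators along an injective map,
and the abstract passage from the eigen-statement for three projections to the triangle inequality.
-/

namespace P335h14

open Finset

set_option linter.unusedSectionVars false

section Transfer

variable {X Y : Type*} [Fintype X] [DecidableEq X] [Fintype Y] [DecidableEq Y]

/-- pull-back of averages along an injective map whose range is a union of classes -/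
theorem avg_extend {r : X → X → Prop} [DecidableRel r] {s : Y → Y → Prop} [DecidableRel s]
    (hs : Equivalence s) (Φ : X → Y) (hinj : Function.Injective Φ)
    (hrs : ∀ x x', r x x' ↔ s (Φ x) (Φ x'))
    (hcl : ∀ x y, s (Φ x) y → ∃ x', Φ x' = y) (f : X → ℝ) :
    avg s (Function.extend Φ f 0) = Function.extend Φ (avg r f) 0 := by
  funext y
  by_cases h : ∃ x, Φ x = y
  · obtain ⟨x, rfl⟩ := h
    rw [hinj.extend_apply]
    unfold avg
    have himg : univ.filter (fun y => s (Φ x) y) = (univ.filter (fun x' => r x x')).image Φ := by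
      ext z
      simp only [mem_filter, mem_univ, true_and, mem_image]
      constructor
      · intro hz
        obtain ⟨x', rfl⟩ := hcl x z hz
        exact ⟨x', (hrs x x').2 hz, rfl⟩
      · rintro ⟨x', hx', rfl⟩
        exact (hrs x x').1 hx'
    rw [himg, Finset.sum_image (fun a _ b _ hab => hinj hab), Finset.card_image_of_injective _ hinj]
    congr 1
    exact Finset.sum_congr rfl (fun x' _ => hinj.extend_apply f 0 x')
  · rw [Function.extend_apply' _ _ _ h]
    unfold avg
    have : ∑ y' ∈ univ.filter (fun y' => s y y'), Function.extend Φ f 0 y' = 0 := by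
      apply Finset.sum_eq_zero
      intro y' hy'
      simp only [mem_filter, mem_univ, true_and] at hy'
      apply Function.extend_apply'
      rintro ⟨x', rfl⟩
      exact h (hcl x' y (hs.symm hy'))
    rw [this]
    simp

theorem extend_add (Φ : X → Y) (f g : X → ℝ) :
    Function.extend Φ (f + g) 0 = Function.extend Φ f 0 + Function.extend Φ g 0 := by
  classical
  funext y
  by_cases h : ∃ x, Φ x = y
  · simp only [Function.extend, Pi.add_apply, dif_pos h]
  · simp only [Function.extend, Pi.add_apply, dif_neg h, Pi.zero_apply, add_zero]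

theorem extend_smul (Φ : X → Y) (a : ℝ) (f : X → ℝ) :
    Function.extend Φ (a • f) 0 = a • Function.extend Φ f 0 := by
  classical
  funext y
  by_cases h : ∃ x, Φ x = y
  · simp only [Function.extend, Pi.smul_apply, dif_pos h]
  · simp only [Function.extend, Pi.smul_apply, dif_neg h, Pi.zero_apply, smul_zero]

/-- transfer of the eigen-statement for three averaging operators -/
theorem three_transfer
    {r₁ r₂ r₃ : X → X → Prop} [DecidableRel r₁] [DecidableRel r₂] [DecidableRel r₃]
    {s₁ s₂ s₃ : Y → Y → Prop} [DecidableRel s₁] [DecidableRel s₂] [DecidableRel s₃]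
    (hs₁ : Equivalence s₁) (hs₂ : Equivalence s₂) (hs₃ : Equivalence s₃)
    (Φ : X → Y) (hinj : Function.Injective Φ)
    (h₁ : ∀ x x', r₁ x x' ↔ s₁ (Φ x) (Φ x')) (h₂ : ∀ x x', r₂ x x' ↔ s₂ (Φ x) (Φ x'))
    (h₃ : ∀ x x', r₃ x x' ↔ s₃ (Φ x) (Φ x'))
    (c₁ : ∀ x y, s₁ (Φ x) y → ∃ x', Φ x' = y) (c₂ : ∀ x y, s₂ (Φ x) y → ∃ x', Φ x' = y)
    (c₃ : ∀ x y, s₃ (Φ x) y → ∃ x', Φ x' = y)
    (μ : ℝ)
    (hY : ∀ F : Y → ℝ, avg s₁ F + avg s₂ F + avg s₃ F = μ • F →
      avg s₁ F = F ∧ avg s₂ F = F ∧ avg s₃ F = F)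
    (f : X → ℝ) (hf : avg r₁ f + avg r₂ f + avg r₃ f = μ • f) :
    avg r₁ f = f ∧ avg r₂ f = f ∧ avg r₃ f = f := by
  have e₁ := avg_extend hs₁ Φ hinj h₁ c₁ f
  have e₂ := avg_extend hs₂ Φ hinj h₂ c₂ f
  have e₃ := avg_extend hs₃ Φ hinj h₃ c₃ f
  have key := hY (Function.extend Φ f 0) (by
    rw [e₁, e₂, e₃, ← extend_add, ← extend_add, hf, extend_smul])
  have back : ∀ g : X → ℝ, Function.extend Φ g 0 = Function.extend Φ f 0 → g = f := by
    intro g hg
    funext x
    have := congrFun hg (Φ x)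
    rwa [hinj.extend_apply, hinj.extend_apply] at this
  exact ⟨back _ (e₁ ▸ key.1), back _ (e₂ ▸ key.2.1), back _ (e₃ ▸ key.2.2)⟩

end Transfer

section Tri

variable {X : Type*} [Fintype X] [DecidableEq X]

/-- from the eigen-statement (no eigenvalue of `E₁+E₂+E₃` in `(2,3)`) to the triangle inequality -/
theorem tri_of_eigen {r₁ r₂ r₃ : X → X → Prop} [DecidableRel r₁] [DecidableRel r₂] [DecidableRel r₃]
    (hr₁ : Equivalence r₁) (hr₂ : Equivalence r₂) (hr₃ : Equivalence r₃)
    (h : ∀ (μ : ℝ) (f : X → ℝ), 2 < μ → avg r₁ f + avg r₂ f + avg r₃ f = μ • f →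
      avg r₁ f = f ∧ avg r₂ f = f ∧ avg r₃ f = f) (f : X → ℝ) :
    0 ≤ ip (f - avg r₁ f) (f - avg r₂ f) + ip (f - avg r₁ f) (f - avg r₃ f)
      + ip (f - avg r₂ f) (f - avg r₃ f) := by
  set T : (X → ℝ) →ₗ[ℝ] (X → ℝ) := avgL r₁ + avgL r₂ + avgL r₃ with hT
  have hTa : ∀ g, T g = avg r₁ g + avg r₂ g + avg r₃ g := fun g => rfl
  have hsym : ∀ f g, ip (T f) g = ip f (T g) := by
    intro f g
    rw [hTa, hTa]
    simp only [ip_add_left, ip_add_right, ip_avg_left hr₁, ip_avg_left hr₂, ip_avg_left hr₃]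
  have hq := quad_nonneg_of_eigen T hsym 1 (-5) 6 (by
    intro μ g hg hgT
    by_cases hμ : 2 < μ
    · obtain ⟨a₁, a₂, a₃⟩ := h μ g hμ (by rw [← hTa]; exact hgT)
      have : (3 : ℝ) • g = μ • g := by
        rw [← hgT, hTa, a₁, a₂, a₃]
        funext x
        simp only [Pi.add_apply, Pi.smul_apply, smul_eq_mul]
        ring
      have h3 : μ = 3 := by
        by_contra hne
        apply hg
        funext x
        have hx := congrFun this x
        simp only [Pi.smul_apply, smul_eq_mul] at hx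
        have : (3 - μ) * g x = 0 := by linarith
        rcases mul_eq_zero.1 this with h0 | h0
        · exact absurd (by linarith) hne
        · simpa using h0
      rw [h3]; norm_num
    · have : μ ≤ 2 := not_lt.1 hμ
      nlinarith) f
  rw [hTa] at hq
  have s₁ := ip_avg_self hr₁ f
  have s₂ := ip_avg_self hr₂ f
  have s₃ := ip_avg_self hr₃ f
  simp only [ip_add_left, ip_add_right, ip_sub_left, ip_sub_right] at hq ⊢
  have k₁ := ip_comm f (avg r₁ f)
  have k₂ := ip_comm f (avg r₂ f)
  have k₃ := ip_comm f (avg r₃ f)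
  have k₄ := ip_comm (avg r₂ f) (avg r₁ f)
  have k₅ := ip_comm (avg r₃ f) (avg r₁ f)
  have k₆ := ip_comm (avg r₃ f) (avg r₂ f)
  nlinarith
end Tri

end P335h14
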