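import Vale.Agent.Lib.P335_helper14.ThreeRow
import Vale.Agent.Lib.P335_helper3.GBasic
import Vale.Agent.Lib.P335_helper21.GLemmas
import Vale.Agent.Lib.P335_helper25.Transfer

/-!
P335 (helper25), module G_T: the three collisions inside a vertex triple `{a,b,c}` are a three-row system
with one extra (virtual) column.  Transfer of `three_row` to graphs.
-/

namespace P335h25

open Finset P335h14 P335G
open P335h21 (sl sl_comm sl_le_one sl_eq_iff sum_split2)

set_option linter.unusedSectionVars false
set_option linter.unusedSimpArgs false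

section GT
variable {V : Type*} [Fintype V] [DecidableEq V]

theorem touch_eq21 (u v : V) : touch u v = P335h21.touch u v := by
  unfold touch P335h21.touch
  ext e
  simp only [mem_filter, mem_univ, true_and]
  tauto

theorem mk_mem_touch {u v a b : V} :
    s(a, b) ∈ touch u v ↔ a ≠ b ∧ (u = a ∨ u = b ∨ v = a ∨ v = b) := by
  rw [touch_eq21]; exact P335h21.mk_mem_touch

theorem deg_eq_sum (x : St V) (v : V) : deg x v = ∑ c, sl x v c := P335h21.deg_eq_sum x v

/-- characterisation of the collision class by slots, columns and rows -/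
theorem grel_touch_char {a b : V} (hab : a ≠ b) (x y : St V) :
    GRel (touch a b) x y ↔
      (∀ p q, (p = q ∨ (p ≠ a ∧ p ≠ b ∧ q ≠ a ∧ q ≠ b)) → sl x p q = sl y p q) ∧
      sl x a b = sl y a b ∧
      (∀ z, z ≠ a → z ≠ b → sl x a z + sl x b z = sl y a z + sl y b z) ∧
      ∑ z ∈ univ.filter (fun z => z ≠ a ∧ z ≠ b), sl x a z
        = ∑ z ∈ univ.filter (fun z => z ≠ a ∧ z ≠ b), sl y a z ∧
      ∑ z ∈ univ.filter (fun z => z ≠ a ∧ z ≠ b), sl x b z
        = ∑ z ∈ univ.filter (fun z => z ≠ a ∧ z ≠ b), sl y b z := by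
  constructor
  · intro h
    have h21 : P335h21.GRel (P335h21.touch a b) x y := by
      rw [touch_eq21] at h; exact h
    obtain ⟨h1, h2, h3⟩ := P335h21.GRel.pair_aux hab h21
    refine ⟨fun p q hpq => ?_, h1, fun z hza hzb => P335h21.GRel.col hab h21 hza hzb, h2, h3⟩
    apply P335h21.GRel.sl_eq h21
    rw [P335h21.mk_mem_touch]
    rintro ⟨hne, hh⟩
    rcases hpq with hpq | ⟨k1, k2, k3, k4⟩
    · exact hne hpq
    · rcases hh with hh | hh | hh | hh
      · exact k1 hh.symm
      · exact k3 hh.symm
      · exact k2 hh.symm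
      · exact k4 hh.symm
  · rintro ⟨F, hAB, hcol, hra, hrb⟩
    refine ⟨?_, fun v => ?_⟩
    · ext e
      induction e using Sym2.ind with
      | _ p q =>
        simp only [mem_sdiff, mk_mem_touch]
        have key : ¬ (p ≠ q ∧ (a = p ∨ a = q ∨ b = p ∨ b = q)) → (s(p, q) ∈ x ↔ s(p, q) ∈ y) := by
          intro hn
          apply sl_eq_iff.1
          apply F
          by_cases hpq : p = q
          · exact Or.inl hpq
          · right
            refine ⟨fun h => hn ⟨hpq, ?_⟩, fun h => hn ⟨hpq, ?_⟩, fun h => hn ⟨hpq, ?_⟩,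
              fun h => hn ⟨hpq, ?_⟩⟩
            · exact Or.inl h.symm
            · exact Or.inr (Or.inr (Or.inl h.symm))
            · exact Or.inr (Or.inl h.symm)
            · exact Or.inr (Or.inr (Or.inr h.symm))
        constructor
        · rintro ⟨h1, h2⟩; exact ⟨(key h2).1 h1, h2⟩
        · rintro ⟨h1, h2⟩; exact ⟨(key h2).2 h1, h2⟩
    · rw [deg_eq_sum, deg_eq_sum, sum_split2 hab, sum_split2 hab]
      by_cases hva : v = a
      · subst hva
        have := F v v (Or.inl rfl)
        omega
      · by_cases hvb : v = b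
        · subst hvb
          have := F v v (Or.inl rfl)
          rw [sl_comm x v a, sl_comm y v a]
          omega
        · have h1 := hcol v hva hvb
          rw [sl_comm x a v, sl_comm x b v, sl_comm y a v, sl_comm y b v] at h1
          have h2 : ∑ c ∈ univ.filter (fun c => c ≠ a ∧ c ≠ b), sl x v c
              = ∑ c ∈ univ.filter (fun c => c ≠ a ∧ c ≠ b), sl y v c := by
            refine Finset.sum_congr rfl (fun c hc => ?_)
            simp only [mem_filter, mem_univ, true_and] at hc
            exact F v c (Or.inr ⟨hva, hvb, hc.1, hc.2⟩)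
          omega

/-! ### the map to matrices -/

/-- entries of the matrix of a state.  Rows `some i`, `i ∈ W`: neighbours outside `W` and the virtual
column `none` (present iff the slot opposite to `i` in `W` is empty).  The other rows record the rest. -/
def PhiP (W : Finset V) (x : St V) : Option V → Option V → Prop
  | none, none => False
  | none, some z => s(z, z) ∈ x
  | some i, some z => z ∉ W ∧ z ≠ i ∧ s(i, z) ∈ x
  | some i, none => i ∈ W ∧ ∀ p ∈ W, ∀ q ∈ W, p ≠ i → q ≠ i → p ≠ q → s(p, q) ∉ x

instance (W : Finset V) (x : St V) (r c : Option V) : Decidable (PhiP W x r c) := by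
  cases r <;> cases c <;> simp only [PhiP] <;> infer_instance

/-- the matrix of a state -/
def Phi (W : Finset V) (x : St V) : Mat (Option V) (Option V) :=
  fun r => univ.filter (fun c => PhiP W x r c)

theorem mem_Phi {W : Finset V} {x : St V} {r c : Option V} : c ∈ Phi W x r ↔ PhiP W x r c := by
  simp [Phi]

theorem none_mem {W : Finset V} {i j k : V} (hW : ∀ p, p ∈ W ↔ p = i ∨ p = j ∨ p = k)
    (hij : i ≠ j) (hik : i ≠ k) (hjk : j ≠ k) (x : St V) :
    none ∈ Phi W x (some i) ↔ s(j, k) ∉ x := by
  rw [mem_Phi]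
  simp only [PhiP]
  constructor
  · rintro ⟨_, h⟩
    exact h j ((hW j).2 (by simp)) k ((hW k).2 (by simp)) hij.symm hik.symm hjk
  · intro h
    refine ⟨(hW i).2 (by simp), fun p hp q hq hpi hqi hpq => ?_⟩
    rcases (hW p).1 hp with rfl | rfl | rfl
    · exact absurd rfl hpi
    · rcases (hW q).1 hq with rfl | rfl | rfl
      · exact absurd rfl hqi
      · exact absurd rfl hpq
      · exact h
    · rcases (hW q).1 hq with rfl | rfl | rfl
      · exact absurd rfl hqi
      · rw [Sym2.eq_swap]; exact h
      · exact absurd rfl hpq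

theorem ind_none {W : Finset V} {i j k : V} (hW : ∀ p, p ∈ W ↔ p = i ∨ p = j ∨ p = k)
    (hij : i ≠ j) (hik : i ≠ k) (hjk : j ≠ k) (x : St V) :
    ind (Phi W x (some i)) none + sl x j k = 1 := by
  unfold ind sl
  by_cases h : s(j, k) ∈ x
  · rw [if_neg (fun h' => (none_mem hW hij hik hjk x).1 h' h), if_pos h]
  · rw [if_pos ((none_mem hW hij hik hjk x).2 h), if_neg h]

theorem ind_some {W : Finset V} {i : V} (hi : i ∈ W) (x : St V) (z : V) :
    ind (Phi W x (some i)) (some z) = if z ∈ W then 0 else sl x i z := by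
  unfold ind sl
  simp only [mem_Phi, PhiP]
  by_cases hz : z ∈ W
  · simp [hz]
  · have : z ≠ i := fun h => hz (h ▸ hi)
    simp [hz, this]

theorem card_eq_sum_ind {γ : Type*} [Fintype γ] [DecidableEq γ] (t : Finset γ) :
    t.card = ∑ c, ind t c := by
  unfold ind
  simp

theorem card_Phi {W : Finset V} {i : V} (hi : i ∈ W) (x : St V) :
    (Phi W x (some i)).card
      = ind (Phi W x (some i)) none + ∑ z, (if z ∈ W then 0 else sl x i z) := by
  rw [card_eq_sum_ind, Fintype.sum_option]
  congr 1
  exact Finset.sum_congr rfl (fun z _ => ind_some hi x z)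

theorem row_split {W : Finset V} {a b c : V} (hW : ∀ p, p ∈ W ↔ p = a ∨ p = b ∨ p = c)
    (hac : a ≠ c) (hbc : b ≠ c) (g : V → ℕ) :
    ∑ z ∈ univ.filter (fun z => z ≠ a ∧ z ≠ b), g z = g c + ∑ z, (if z ∈ W then 0 else g z) := by
  rw [Finset.sum_filter]
  have : ∀ z, (if z ≠ a ∧ z ≠ b then g z else 0)
      = (if z = c then g c else 0) + (if z ∈ W then 0 else g z) := by
    intro z
    by_cases hza : z = a
    · subst hza
      simp [(hW z).2 (Or.inl rfl), hac]
    · by_cases hzb : z = b
      · subst hzb
        simp [(hW z).2 (Or.inr (Or.inl rfl)), hbc]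
      · by_cases hzc : z = c
        · subst hzc
          simp [(hW z).2 (Or.inr (Or.inr rfl)), hza, hzb]
        · have : z ∉ W := fun h => by
            rcases (hW z).1 h with h | h | h
            · exact hza h
            · exact hzb h
            · exact hzc h
          simp [this, hza, hzb, hzc]
  rw [Finset.sum_congr rfl (fun z _ => this z), Finset.sum_add_distrib]
  simp


theorem not_mem_W {W : Finset V} {a b c : V} (hW : ∀ p, p ∈ W ↔ p = a ∨ p = b ∨ p = c) {z : V}
    (hz : z ∉ W) : z ≠ a ∧ z ≠ b ∧ z ≠ c :=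
  ⟨fun h => hz ((hW z).2 (Or.inl h)), fun h => hz ((hW z).2 (Or.inr (Or.inl h))),
    fun h => hz ((hW z).2 (Or.inr (Or.inr h)))⟩

/-- the frozen rows -/
theorem rows_of_frozen {W : Finset V} {a b c : V} (hW : ∀ p, p ∈ W ↔ p = a ∨ p = b ∨ p = c)
    (hab : a ≠ b) (hac : a ≠ c) (hbc : b ≠ c) {x y : St V}
    (F : ∀ p q, (p = q ∨ (p ≠ a ∧ p ≠ b ∧ q ≠ a ∧ q ≠ b)) → sl x p q = sl y p q)
    (hAB : sl x a b = sl y a b) (r : Option V) (hra : r ≠ some a) (hrb : r ≠ some b) :
    Phi W x r = Phi W y r := by
  have hWc : ∀ p, p ∈ W ↔ p = c ∨ p = a ∨ p = b := fun p => by rw [hW]; tauto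
  ext col
  cases r with
  | none =>
    cases col with
    | none => simp only [mem_Phi, PhiP]
    | some z =>
      simp only [mem_Phi, PhiP]
      exact sl_eq_iff.1 (F z z (Or.inl rfl))
  | some i =>
    have hia : i ≠ a := fun h => hra (by rw [h])
    have hib : i ≠ b := fun h => hrb (by rw [h])
    cases col with
    | none =>
      by_cases hi : i ∈ W
      · have hic : i = c := by
          rcases (hW i).1 hi with h | h | h
          · exact absurd h hia
          · exact absurd h hib
          · exact h
        subst hic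
        rw [none_mem hWc hac.symm hbc.symm hab, none_mem hWc hac.symm hbc.symm hab]
        exact not_congr (sl_eq_iff.1 hAB)
      · simp only [mem_Phi, PhiP, hi, false_and]
    | some z =>
      simp only [mem_Phi, PhiP]
      constructor
      · rintro ⟨h1, h2, h3⟩
        obtain ⟨k1, k2, _⟩ := not_mem_W hW h1
        exact ⟨h1, h2, (sl_eq_iff.1 (F i z (Or.inr ⟨hia, hib, k1, k2⟩))).1 h3⟩
      · rintro ⟨h1, h2, h3⟩
        obtain ⟨k1, k2, _⟩ := not_mem_W hW h1
        exact ⟨h1, h2, (sl_eq_iff.1 (F i z (Or.inr ⟨hia, hib, k1, k2⟩))).2 h3⟩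

theorem frozen_of_rows {W : Finset V} {a b c : V} (hW : ∀ p, p ∈ W ↔ p = a ∨ p = b ∨ p = c)
    (hab : a ≠ b) (hac : a ≠ c) (hbc : b ≠ c) {x y : St V}
    (rows : ∀ r : Option V, r ≠ some a → r ≠ some b → Phi W x r = Phi W y r) :
    (∀ p q, (p = q ∨ (p ≠ a ∧ p ≠ b ∧ q ≠ a ∧ q ≠ b)) → sl x p q = sl y p q) ∧
      sl x a b = sl y a b := by
  have hWc : ∀ p, p ∈ W ↔ p = c ∨ p = a ∨ p = b := fun p => by rw [hW]; tauto
  have ent : ∀ (r col : Option V), r ≠ some a → r ≠ some b → (PhiP W x r col ↔ PhiP W y r col) := by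
    intro r col h1 h2
    rw [← mem_Phi, ← mem_Phi, rows r h1 h2]
  have hdiag : ∀ p, sl x p p = sl y p p := by
    intro p
    apply sl_eq_iff.2
    have := ent none (some p) (by simp) (by simp)
    simpa only [PhiP] using this
  have hoff : ∀ p q, p ≠ a → p ≠ b → q ∉ W → q ≠ p → sl x p q = sl y p q := by
    intro p q hpa hpb hq hqp
    apply sl_eq_iff.2
    have := ent (some p) (some q) (by simpa using hpa) (by simpa using hpb)
    simpa only [PhiP, hq, hqp, not_false_eq_true, ne_eq, true_and] using this
  refine ⟨fun p q hpq => ?_, ?_⟩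
  · by_cases hpq' : p = q
    · subst hpq'; exact hdiag p
    · rcases hpq with hpq | ⟨k1, k2, k3, k4⟩
      · exact absurd hpq hpq'
      · by_cases hq : q ∈ W
        · have hqc : q = c := by
            rcases (hW q).1 hq with h | h | h
            · exact absurd h k3
            · exact absurd h k4
            · exact h
          have hp : p ∉ W := by
            intro hp
            rcases (hW p).1 hp with h | h | h
            · exact k1 h
            · exact k2 h
            · exact hpq' (h.trans hqc.symm)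
          rw [sl_comm x p q, sl_comm y p q]
          exact hoff q p k3 k4 hp hpq'
        · exact hoff p q k1 k2 hq (fun h => hpq' h.symm)
  · apply sl_eq_iff.2
    have h1 := none_mem hWc hac.symm hbc.symm hab x
    have h2 := none_mem hWc hac.symm hbc.symm hab y
    rw [rows (some c) (by simpa using hac.symm) (by simpa using hbc.symm)] at h1
    exact not_iff_not.1 (h1.symm.trans h2)

/-- the collision of `a,b` is the two-row resampling of the rows `a,b` -/
theorem grel_iff_rel {W : Finset V} {a b c : V} (hW : ∀ p, p ∈ W ↔ p = a ∨ p = b ∨ p = c)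
    (hab : a ≠ b) (hac : a ≠ c) (hbc : b ≠ c) (x y : St V) :
    GRel (touch a b) x y ↔ P335h14.Rel {some a, some b} (Phi W x) (Phi W y) := by
  have hWb : ∀ p, p ∈ W ↔ p = b ∨ p = a ∨ p = c := fun p => by rw [hW]; tauto
  have haW : a ∈ W := (hW a).2 (Or.inl rfl)
  have hbW : b ∈ W := (hW b).2 (Or.inr (Or.inl rfl))
  have hcW : c ∈ W := (hW c).2 (Or.inr (Or.inr rfl))
  have hsab : (some a : Option V) ≠ some b := by simpa using hab
  rw [grel_touch_char hab, rel_pair_iff hsab]
  -- local facts
  have na := fun x : St V => ind_none hW hab hac hbc x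
  have nb := fun x : St V => ind_none hWb hab.symm hbc hac x
  have ca := fun x : St V => card_Phi haW x
  have cb := fun x : St V => card_Phi hbW x
  have ra := fun x : St V => row_split hW hac hbc (fun z => sl x a z)
  have rb := fun x : St V => row_split hW hac hbc (fun z => sl x b z)
  constructor
  · rintro ⟨F, hAB, hcol, hra, hrb⟩
    have hc := hcol c hac.symm hbc.symm
    refine ⟨fun r h1 h2 => rows_of_frozen hW hab hac hbc F hAB r h1 h2, ?_, ?_, fun col => ?_⟩
    · have := na x; have := na y; have := ca x; have := ca y; have := ra x; have := ra y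

      omega
    · have := nb x; have := nb y; have := cb x; have := cb y; have := rb x; have := rb y

      omega
    · cases col with
      | none =>
        have := na x; have := na y; have := nb x; have := nb y
        omega
      | some z =>
        rw [ind_some haW, ind_some hbW, ind_some haW, ind_some hbW]
        by_cases hz : z ∈ W
        · simp [hz]
        · obtain ⟨k1, k2, _⟩ := not_mem_W hW hz
          simp only [hz, if_false]
          exact hcol z k1 k2
  · rintro ⟨rows, hca, hcb, cols⟩
    obtain ⟨F, hAB⟩ := frozen_of_rows hW hab hac hbc rows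
    have hc : sl x a c + sl x b c = sl y a c + sl y b c := by
      have := cols none
      have := na x; have := na y; have := nb x; have := nb y
      omega
    refine ⟨F, hAB, fun z hza hzb => ?_, ?_, ?_⟩
    · by_cases hz : z ∈ W
      · have hzc : z = c := by
          rcases (hW z).1 hz with h | h | h
          · exact absurd h hza
          · exact absurd h hzb
          · exact h
        subst hzc; exact hc
      · have := cols (some z)
        rw [ind_some haW, ind_some hbW, ind_some haW, ind_some hbW] at this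
        simpa only [hz, if_false] using this
    · have := na x; have := na y; have := ca x; have := ca y; have := ra x; have := ra y

      omega
    · have := nb x; have := nb y; have := cb x; have := cb y; have := rb x; have := rb y

      omega

/-- `Phi` is injective -/
theorem Phi_injective {W : Finset V} {a b c : V} (hW : ∀ p, p ∈ W ↔ p = a ∨ p = b ∨ p = c)
    (hab : a ≠ b) (hac : a ≠ c) (hbc : b ≠ c) : Function.Injective (Phi W) := by
  intro x y hxy
  have hWb : ∀ p, p ∈ W ↔ p = b ∨ p = a ∨ p = c := fun p => by rw [hW]; tauto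
  have hWa : ∀ p, p ∈ W ↔ p = a ∨ p = c ∨ p = b := fun p => by rw [hW]; tauto
  have hWc : ∀ p, p ∈ W ↔ p = b ∨ p = c ∨ p = a := fun p => by rw [hW]; tauto
  obtain ⟨F, hAB⟩ := frozen_of_rows hW hab hac hbc (x := x) (y := y) (fun r _ _ => by rw [hxy])
  obtain ⟨F2, hAC⟩ := frozen_of_rows hWa hac hab hbc.symm (x := x) (y := y)
    (fun r _ _ => by rw [hxy])
  obtain ⟨F3, hBC⟩ := frozen_of_rows hWc hbc hab.symm hac.symm (x := x) (y := y)
    (fun r _ _ => by rw [hxy])
  have ent : ∀ (r col : Option V), (PhiP W x r col ↔ PhiP W y r col) := by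
    intro r col
    rw [← mem_Phi, ← mem_Phi, hxy]
  have hoff : ∀ p q, q ∉ W → q ≠ p → sl x p q = sl y p q := by
    intro p q hq hqp
    apply sl_eq_iff.2
    have := ent (some p) (some q)
    simpa only [PhiP, hq, hqp, not_false_eq_true, ne_eq, true_and] using this
  ext e
  induction e using Sym2.ind with
  | _ p q =>
    apply sl_eq_iff.1
    by_cases hpq : p = q
    · exact F p q (Or.inl hpq)
    · by_cases hq : q ∈ W
      · by_cases hp : p ∈ W
        · rcases (hW p).1 hp with rfl | rfl | rfl <;> rcases (hW q).1 hq with rfl | rfl | rfl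
          · exact absurd rfl hpq
          · exact hAB
          · exact hAC
          · rw [sl_comm x, sl_comm y]; exact hAB
          · exact absurd rfl hpq
          · exact hBC
          · rw [sl_comm x, sl_comm y]; exact hAC
          · rw [sl_comm x, sl_comm y]; exact hBC
          · exact absurd rfl hpq
        · rw [sl_comm x, sl_comm y]
          exact hoff q p hp hpq
      · exact hoff p q hq (fun h => hpq h.symm)

/-- the range of `Phi` is closed under the two-row resamplings -/
theorem Phi_closed {W : Finset V} {a b c : V} (hW : ∀ p, p ∈ W ↔ p = a ∨ p = b ∨ p = c)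
    (hab : a ≠ b) (hac : a ≠ c) (hbc : b ≠ c) (x : St V) (N : Mat (Option V) (Option V))
    (h : P335h14.Rel {some a, some b} (Phi W x) N) : ∃ y, Phi W y = N := by
  classical
  have hWb : ∀ p, p ∈ W ↔ p = b ∨ p = a ∨ p = c := fun p => by rw [hW]; tauto
  have hWc : ∀ p, p ∈ W ↔ p = c ∨ p = a ∨ p = b := fun p => by rw [hW]; tauto
  have haW : a ∈ W := (hW a).2 (Or.inl rfl)
  have hbW : b ∈ W := (hW b).2 (Or.inr (Or.inl rfl))
  have hsab : (some a : Option V) ≠ some b := by simpa using hab
  obtain ⟨rows, _, _, cols⟩ := (rel_pair_iff hsab _ _).1 h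
  -- the new content of the slots at `a` and `b`
  let cnd : V → V → Prop := fun i z =>
    if z = c then none ∉ N (some (if i = a then b else a)) else some z ∈ N (some i)
  let m : V → V → Prop := fun p q =>
    if (p = a ∨ p = b) ∧ q ≠ a ∧ q ≠ b then cnd p q
    else if (q = a ∨ q = b) ∧ p ≠ a ∧ p ≠ b then cnd q p
    else s(p, q) ∈ x
  have hm : Std.Symm m := by
    refine ⟨fun p q hpq => ?_⟩
    simp only [m] at hpq ⊢
    by_cases h1 : (p = a ∨ p = b) ∧ q ≠ a ∧ q ≠ b
    · have h2 : ¬ ((q = a ∨ q = b) ∧ p ≠ a ∧ p ≠ b) := by tauto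
      rw [if_pos h1] at hpq
      rw [if_neg h2, if_pos h1]; exact hpq
    · rw [if_neg h1] at hpq
      by_cases h2 : (q = a ∨ q = b) ∧ p ≠ a ∧ p ≠ b
      · rw [if_pos h2] at hpq
        rw [if_pos h2]; exact hpq
      · rw [if_neg h2] at hpq
        rw [if_neg h2, if_neg h1, Sym2.eq_swap]; exact hpq
  let y : St V := univ.filter (fun e => e ∈ Sym2.fromRel hm)
  have hy : ∀ p q, s(p, q) ∈ y ↔ m p q := by
    intro p q
    simp only [y, mem_filter, mem_univ, true_and, Sym2.fromRel_prop]
  have hy0 : ∀ p q, ¬ ((p = a ∨ p = b) ∧ q ≠ a ∧ q ≠ b) → ¬ ((q = a ∨ q = b) ∧ p ≠ a ∧ p ≠ b) →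
      (s(p, q) ∈ y ↔ s(p, q) ∈ x) := by
    intro p q h1 h2
    rw [hy]
    simp only [m]
    rw [if_neg h1, if_neg h2]
  have hy1 : ∀ i z, (i = a ∨ i = b) → z ≠ a → z ≠ b → (s(i, z) ∈ y ↔ cnd i z) := by
    intro i z h1 h2 h3
    rw [hy]
    simp only [m]
    rw [if_pos ⟨h1, h2, h3⟩]
  -- frozen part
  have F : ∀ p q, (p = q ∨ (p ≠ a ∧ p ≠ b ∧ q ≠ a ∧ q ≠ b)) → sl y p q = sl x p q := by
    intro p q hpq
    apply sl_eq_iff.2
    rcases hpq with rfl | hpq
    · apply hy0 <;> tauto
    · apply hy0 <;> tauto
  have hAB : sl y a b = sl x a b := by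
    apply sl_eq_iff.2
    apply hy0 <;> tauto
  -- columns inside `W` are empty
  have hemp : ∀ z ∈ W, some z ∉ N (some a) ∧ some z ∉ N (some b) := by
    intro z hz
    have := cols (some z)
    rw [ind_some haW, ind_some hbW, if_pos hz, if_pos hz] at this
    unfold ind at this
    constructor
    · intro h1; rw [if_pos h1] at this; omega
    · intro h1; rw [if_pos h1] at this; omega
  refine ⟨y, ?_⟩
  funext r
  by_cases hra : r = some a
  · subst hra
    ext col
    cases col with
    | none =>
      rw [none_mem hW hab hac hbc, hy1 b c (Or.inr rfl) hac.symm hbc.symm]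
      simp only [cnd, if_true, if_neg hab.symm, not_not]
    | some z =>
      simp only [mem_Phi, PhiP]
      by_cases hz : z ∈ W
      · simp only [hz, not_true_eq_false, false_and, false_iff]
        exact (hemp z hz).1
      · obtain ⟨k1, k2, k3⟩ := not_mem_W hW hz
        rw [hy1 a z (Or.inl rfl) k1 k2]
        simp only [cnd, if_neg k3, hz, not_false_eq_true, true_and, ne_eq, k1]
  · by_cases hrb : r = some b
    · subst hrb
      ext col
      cases col with
      | none =>
        rw [none_mem hWb hab.symm hbc hac, hy1 a c (Or.inl rfl) hac.symm hbc.symm]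
        simp only [cnd, if_true, not_not]
      | some z =>
        simp only [mem_Phi, PhiP]
        by_cases hz : z ∈ W
        · simp only [hz, not_true_eq_false, false_and, false_iff]
          exact (hemp z hz).2
        · obtain ⟨k1, k2, k3⟩ := not_mem_W hW hz
          rw [hy1 b z (Or.inr rfl) k1 k2]
          simp only [cnd, if_neg k3, hz, not_false_eq_true, true_and, ne_eq, k2]
    · rw [rows_of_frozen hW hab hac hbc F hAB r hra hrb]
      exact rows r hra hrb

theorem grel_equiv (A : Finset (Sym2 V)) : Equivalence (GRel A) where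
  refl := fun _ => ⟨rfl, fun _ => rfl⟩
  symm := fun h => ⟨h.1.symm, fun v => (h.2 v).symm⟩
  trans := fun h1 h2 => ⟨h1.1.trans h2.1, fun v => (h1.2 v).trans (h2.2 v)⟩

/-- the key lemma for a vertex triple -/
theorem three_vertex {u v w : V} (huv : u ≠ v) (huw : u ≠ w) (hvw : v ≠ w) (f : St V → ℝ) (μ : ℝ)
    (hμ : 2 < μ)
    (hf : avg (GRel (touch u v)) f + avg (GRel (touch u w)) f + avg (GRel (touch v w)) f = μ • f) :
    avg (GRel (touch u v)) f = f ∧ avg (GRel (touch u w)) f = f ∧ avg (GRel (touch v w)) f = f := by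
  have hW : ∀ p, p ∈ ({u, v, w} : Finset V) ↔ p = u ∨ p = v ∨ p = w := fun p => by simp
  have hW2 : ∀ p, p ∈ ({u, v, w} : Finset V) ↔ p = u ∨ p = w ∨ p = v := fun p => by
    rw [hW]; tauto
  have hW3 : ∀ p, p ∈ ({u, v, w} : Finset V) ↔ p = v ∨ p = w ∨ p = u := fun p => by
    rw [hW]; tauto
  exact three_transfer (Rel.equiv _) (Rel.equiv _) (Rel.equiv _) (Phi {u, v, w})
    (Phi_injective hW huv huw hvw)
    (grel_iff_rel hW huv huw hvw) (grel_iff_rel hW2 huw huv hvw.symm)
    (grel_iff_rel hW3 hvw huv.symm huw.symm)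
    (Phi_closed hW huv huw hvw) (Phi_closed hW2 huw huv hvw.symm)
    (Phi_closed hW3 hvw huv.symm huw.symm) μ
    (fun F hF => three_row (by simpa using huv) (by simpa using huw) (by simpa using hvw) F μ hμ hF)
    f hf

/-- the triangle inequality (`htri`) for graphs -/
theorem g_tri {u v w : V} (huv : u ≠ v) (huw : u ≠ w) (hvw : v ≠ w) (f : St V → ℝ) :
    0 ≤ ip (f - avg (GRel (touch u v)) f) (f - avg (GRel (touch u w)) f)
      + ip (f - avg (GRel (touch u v)) f) (f - avg (GRel (touch v w)) f)
      + ip (f - avg (GRel (touch u w)) f) (f - avg (GRel (touch v w)) f) :=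
  tri_of_eigen (grel_equiv _) (grel_equiv _) (grel_equiv _)
    (fun μ g hμ hg => three_vertex huv huw hvw g μ hμ hg) f

end GT

end P335h25
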