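import Vale.Agent.Lib.P335_helper14.AvgApi

/-!
P335 (helper25): the projection algebra of the core lemma (Steps 1-2 of the D-part).
-/

namespace P335h14

open Finset

set_option linter.unusedSectionVars false
set_option linter.unusedSimpArgs false

section OpAlg

variable {X : Type*} [Fintype X] [DecidableEq X]

/-- commuting symmetric idempotents have a nonnegative mixed form -/
theorem ip_nonneg_of_comm_proj (P Q : Module.End ℝ (X → ℝ))
    (sP : ∀ f g, ip (P f) g = ip f (P g)) (sQ : ∀ f g, ip (Q f) g = ip f (Q g))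
    (iP : P * P = P) (iQ : Q * Q = Q) (hc : P * Q = Q * P) (f : X → ℝ) : 0 ≤ ip (P f) (Q f) := by
  have h : ip (P f) (Q f) = ip ((P * Q) f) ((P * Q) f) := by
    have e : Q * P * (P * Q) = P * Q := by
      calc Q * P * (P * Q) = Q * (P * P) * Q := by simp only [mul_assoc]
        _ = Q * P * Q := by rw [iP]
        _ = P * Q * Q := by rw [hc]
        _ = P * (Q * Q) := by rw [mul_assoc]
        _ = P * Q := by rw [iQ]
    have e2 : ip ((P * Q) f) ((P * Q) f) = ip f ((Q * P * (P * Q)) f) := by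
      simp only [Module.End.mul_apply]
      rw [sP, sQ]
    rw [e2, e, sP]
    rfl
  rw [h]
  exact ip_self_nonneg _

theorem opalg (ER Eb Eb' Tb Tb' : Module.End ℝ (X → ℝ))
    (sR : ∀ f g, ip (ER f) g = ip f (ER g)) (sb : ∀ f g, ip (Eb f) g = ip f (Eb g))
    (sb' : ∀ f g, ip (Eb' f) g = ip f (Eb' g)) (st : ∀ f g, ip (Tb f) g = ip f (Tb g))
    (st' : ∀ f g, ip (Tb' f) g = ip f (Tb' g))
    (iR : ER * ER = ER) (ib : Eb * Eb = Eb) (ib' : Eb' * Eb' = Eb') (it : Tb * Tb = Tb)
    (it' : Tb' * Tb' = Tb')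
    (n1 : Eb * ER = Eb) (n2 : ER * Eb = Eb) (n3 : Eb * Tb = Eb) (n4 : Tb * Eb = Eb)
    (n1' : Eb' * ER = Eb') (n2' : ER * Eb' = Eb') (n3' : Eb' * Tb' = Eb') (n4' : Tb' * Eb' = Eb')
    (c1 : Tb * ER = ER * Tb) (c2 : Tb' * ER = ER * Tb') (c3 : Tb' * Tb = Tb * Tb')
    (c4 : Eb' * Tb = Tb * Eb') (c5 : Eb * Tb' = Tb' * Eb) (f : X → ℝ) :
    ip (f - ER f) (f - ER f) + ip ((ER * Tb - Eb) f) ((ER * Tb' - Eb') f)
      ≤ ip (f - Eb f) (f - Eb' f) := by
  -- reassociated rewriting rules
  have r {A B C : Module.End ℝ (X → ℝ)} (h : A * B = C) (Z : Module.End ℝ (X → ℝ)) :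
      A * (B * Z) = C * Z := by rw [← mul_assoc, h]
  have symm_mul {A B : Module.End ℝ (X → ℝ)} (sA : ∀ f g, ip (A f) g = ip f (A g))
      (sB : ∀ f g, ip (B f) g = ip f (B g)) (hAB : A * B = B * A) :
      ∀ f g, ip ((A * B) f) g = ip f ((A * B) g) := by
    intro f g
    conv_rhs => rw [hAB]
    simp only [Module.End.mul_apply]
    rw [sA, sB]
  have symm_sub {A B : Module.End ℝ (X → ℝ)} (sA : ∀ f g, ip (A f) g = ip f (A g))
      (sB : ∀ f g, ip (B f) g = ip f (B g)) :
      ∀ f g, ip ((A - B) f) g = ip f ((A - B) g) := by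
    intro f g
    simp only [LinearMap.sub_apply, ip_sub_left, ip_sub_right, sA, sB]
  set a : Module.End ℝ (X → ℝ) := ER - ER * Tb with ha
  set a' : Module.End ℝ (X → ℝ) := ER - ER * Tb' with ha'
  set c : Module.End ℝ (X → ℝ) := ER * Tb - Eb with hc
  set c' : Module.End ℝ (X → ℝ) := ER * Tb' - Eb' with hc'
  have sRT := symm_mul sR st c1.symm
  have sRT' := symm_mul sR st' c2.symm
  have sa := symm_sub sR sRT
  have sa' := symm_sub sR sRT'
  have sc := symm_sub sRT sb
  have sc' := symm_sub sRT' sb'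
  have ia : a * a = a := by
    simp only [ha, mul_sub, sub_mul, mul_assoc, iR, r iR, c1, r c1, it, r it]
    abel
  have ia' : a' * a' = a' := by
    simp only [ha', mul_sub, sub_mul, mul_assoc, iR, r iR, c2, r c2, it', r it']
    abel
  have ic : c * c = c := by
    simp only [hc, mul_sub, sub_mul, mul_assoc, iR, r iR, c1, r c1, it, r it, n1, r n1, n2, r n2, n3,
      r n3, n4, r n4, ib]
    abel
  have ic' : c' * c' = c' := by
    simp only [hc', mul_sub, sub_mul, mul_assoc, iR, r iR, c2, r c2, it', r it', n1', r n1', n2',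
      r n2', n3', r n3', n4', r n4', ib']
    abel
  have caa : a * a' = a' * a := by
    simp only [ha, ha', mul_sub, sub_mul, mul_assoc, iR, r iR, c1, r c1, c2, r c2, c3, r c3]
    abel
  have x1 : ER * (Tb * Eb') = Tb * Eb' := by rw [← mul_assoc, ← c1, mul_assoc, n2']
  have x2 : ER * (Tb' * Eb) = Tb' * Eb := by rw [← mul_assoc, ← c2, mul_assoc, n2]
  have cac : a * c' = c' * a := by
    simp only [ha, hc', x1, mul_sub, sub_mul, mul_assoc, iR, r iR, c1, r c1, c2, r c2, c3, r c3, c4, r c4,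
      n1', r n1', n2', r n2']
    try abel
  have cca : c * a' = a' * c := by
    simp only [ha', hc, x2, mul_sub, sub_mul, mul_assoc, iR, r iR, c1, r c1, c2, r c2, c3, r c3, c5, r c5,
      n1, r n1, n2, r n2]
    try abel
  have p1 := ip_nonneg_of_comm_proj a a' sa sa' ia ia' caa f
  have p2 := ip_nonneg_of_comm_proj a c' sa sc' ia ic' cac f
  have p3 := ip_nonneg_of_comm_proj c a' sc sa' ic ia' cca f
  -- decomposition
  have d1 : f - Eb f = (f - ER f) + (a f + c f) := by
    simp only [ha, hc, LinearMap.sub_apply]; abel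
  have d2 : f - Eb' f = (f - ER f) + (a' f + c' f) := by
    simp only [ha', hc', LinearMap.sub_apply]; abel
  have z {N : Module.End ℝ (X → ℝ)} (hN : ER * N = N) : ip (f - ER f) (N f) = 0 := by
    have : ip (ER f) (N f) = ip f (N f) := by
      rw [sR]
      have : ER (N f) = (ER * N) f := rfl
      rw [this, hN]
    rw [ip_sub_left, this, sub_self]
  have za : ER * a = a := by simp only [ha, mul_sub, ← mul_assoc, iR]
  have za' : ER * a' = a' := by simp only [ha', mul_sub, ← mul_assoc, iR]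
  have zc : ER * c = c := by simp only [hc, mul_sub, ← mul_assoc, iR, n2]
  have zc' : ER * c' = c' := by simp only [hc', mul_sub, ← mul_assoc, iR, n2']
  rw [d1, d2]
  simp only [ip_add_left, ip_add_right]
  have y1 := z za
  have y2 := z za'
  have y3 := z zc
  have y4 := z zc'
  have y1' := ip_comm (a f) (f - ER f)
  have y3' := ip_comm (c f) (f - ER f)
  linarith

/-- the projection algebra for averaging operators -/
theorem core_alg {rR rb rb' tb tb' : X → X → Prop} [DecidableRel rR] [DecidableRel rb]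
    [DecidableRel rb'] [DecidableRel tb] [DecidableRel tb']
    (hR : Equivalence rR) (hb : Equivalence rb) (hb' : Equivalence rb') (ht : Equivalence tb)
    (ht' : Equivalence tb')
    (nR : ∀ x y, rR x y → rb x y) (nt : ∀ x y, tb x y → rb x y)
    (nR' : ∀ x y, rR x y → rb' x y) (nt' : ∀ x y, tb' x y → rb' x y)
    (c1 : ∀ f, avg tb (avg rR f) = avg rR (avg tb f))
    (c2 : ∀ f, avg tb' (avg rR f) = avg rR (avg tb' f))
    (c3 : ∀ f, avg tb' (avg tb f) = avg tb (avg tb' f))
    (c4 : ∀ f, avg rb' (avg tb f) = avg tb (avg rb' f))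
    (c5 : ∀ f, avg rb (avg tb' f) = avg tb' (avg rb f)) (f : X → ℝ) :
    ip (f - avg rR f) (f - avg rR f)
        + ip (avg rR (avg tb f) - avg rb f) (avg rR (avg tb' f) - avg rb' f)
      ≤ ip (f - avg rb f) (f - avg rb' f) := by
  have e {A B C : Module.End ℝ (X → ℝ)} (h : ∀ f, A (B f) = C f) : A * B = C :=
    LinearMap.ext h
  exact opalg (avgL rR) (avgL rb) (avgL rb') (avgL tb) (avgL tb')
    (ip_avg_left hR) (ip_avg_left hb) (ip_avg_left hb') (ip_avg_left ht) (ip_avg_left ht')
    (e (avg_idem hR)) (e (avg_idem hb)) (e (avg_idem hb')) (e (avg_idem ht)) (e (avg_idem ht'))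
    (e fun f => (avg_avg_of_le hR hb nR f).1) (e fun f => (avg_avg_of_le hR hb nR f).2)
    (e fun f => (avg_avg_of_le ht hb nt f).1) (e fun f => (avg_avg_of_le ht hb nt f).2)
    (e fun f => (avg_avg_of_le hR hb' nR' f).1) (e fun f => (avg_avg_of_le hR hb' nR' f).2)
    (e fun f => (avg_avg_of_le ht' hb' nt' f).1) (e fun f => (avg_avg_of_le ht' hb' nt' f).2)
    (e c1) (e c2) (e c3) (e c4) (e c5) f

end OpAlg

end P335h14
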